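import Mathlib

namespace Vale.Agent.Lib.P079

open Set Filter Topology

variable {X : Type*} [NormedAddCommGroup X] [NormedSpace ℝ X]

/-- In a reflexive space, a family of closed convex subsets of a bounded set with the finite
intersection property has nonempty intersection. -/
theorem reflexive_fip
    (hrefl : Function.Surjective (NormedSpace.inclusionInDoubleDual ℝ X))
    {ι : Type*} (S : ι → Set X) (hclosed : ∀ i, IsClosed (S i)) (hconv : ∀ i, Convex ℝ (S i))
    (B : Set X) (hB : Bornology.IsBounded B) (hSB : ∀ i, S i ⊆ B)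
    (hfin : ∀ t : Finset ι, (B ∩ ⋂ i ∈ t, S i).Nonempty) :
    (B ∩ ⋂ i, S i).Nonempty := by
  classical
  let e := toWeakSpace ℝ X
  have hcl : ∀ i, IsClosed (e '' S i) := by
    intro i
    have h := (hconv i).toWeakSpace_closure ℝ
    rw [(hclosed i).closure_eq] at h
    rw [h]
    exact isClosed_closure
  have hcomp : IsCompact (closure (e '' B)) := by
    apply NormedSpace.isCompact_closure_of_isBounded ℝ X (e '' B)
    · have : (e ⁻¹' (e '' B)) = B := by
        ext x; simp
      rw [this]; exact hB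
    · intro ξ _
      obtain ⟨x, hx⟩ := hrefl (WeakDual.toStrongDual ξ)
      refine ⟨e x, ?_⟩
      apply WeakDual.toStrongDual.injective
      rw [← hx]
      rfl
  have key := hcomp.inter_iInter_nonempty (fun i => e '' S i) hcl (by
    intro u
    obtain ⟨x, hxB, hx⟩ := hfin u
    refine ⟨e x, subset_closure ⟨x, hxB, rfl⟩, ?_⟩
    simp only [mem_iInter] at hx ⊢
    intro i hi
    exact ⟨x, hx i hi, rfl⟩)
  obtain ⟨y, hy1, hy2⟩ := key
  simp only [mem_iInter] at hy2
  by_cases hne : Nonempty ι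
  · obtain ⟨i0⟩ := hne
    obtain ⟨x, hx, rfl⟩ := hy2 i0
    refine ⟨x, hSB i0 hx, ?_⟩
    simp only [mem_iInter]
    intro i
    obtain ⟨x', hx', hxe⟩ := hy2 i
    have : x' = x := e.injective hxe
    rw [← this]; exact hx'
  · obtain ⟨x, hxB, _⟩ := hfin ∅
    refine ⟨x, hxB, ?_⟩
    simp only [mem_iInter]
    intro i
    exact absurd ⟨i⟩ hne

/-- `K` is a nonempty closed convex `T`-invariant set. -/
structure Inv (T : X → X) (K : Set X) : Prop where
  nonempty : K.Nonempty
  closed : IsClosed K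
  convex : Convex ℝ K
  mapsTo : Set.MapsTo T K K

/-- `K` is a minimal nonempty closed convex `T`-invariant set. -/
def IsMinInv (T : X → X) (K : Set X) : Prop :=
  Inv T K ∧ ∀ D : Set X, D ⊆ K → Inv T D → D = K

theorem exists_minimal
    (hrefl : Function.Surjective (NormedSpace.inclusionInDoubleDual ℝ X))
    {C : Set X} {T : X → X} (hC : Inv T C) (hbd : Bornology.IsBounded C) :
    ∃ K, K ⊆ C ∧ IsMinInv T K := by
  classical
  let S : Set (Set X) := {D | D ⊆ C ∧ Inv T D}
  have hCS : C ∈ S := ⟨Subset.rfl, hC⟩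
  obtain ⟨m, hmC, hm⟩ := zorn_superset_nonempty S (by
    intro c hcS hchain hcne
    refine ⟨⋂₀ c, ⟨?_, ?_⟩, fun s hs => sInter_subset_of_mem hs⟩
    · obtain ⟨s0, hs0⟩ := hcne
      exact (sInter_subset_of_mem hs0).trans (hcS hs0).1
    · refine ⟨?_, isClosed_sInter fun s hs => (hcS hs).2.closed,
        convex_sInter fun s hs => (hcS hs).2.convex, ?_⟩
      · have hfin : ∀ t : Finset c, ∃ D, (D = C ∨ D ∈ c) ∧ D ⊆ ⋂ i ∈ t, (i : Set X) := by
          intro t
          induction t using Finset.induction_on with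
          | empty => exact ⟨C, Or.inl rfl, by simp⟩
          | insert a t _ ih =>
            obtain ⟨D, hDc, hD⟩ := ih
            have hsub : ∀ E : Set X, E ⊆ D → E ⊆ (a : Set X) →
                E ⊆ ⋂ i ∈ insert a t, (i : Set X) := by
              intro E hED hEa x hx
              simp only [Finset.mem_insert, mem_iInter]
              rintro i (rfl | hi)
              · exact hEa hx
              · have := hD (hED hx)
                simp only [mem_iInter] at this
                exact this i hi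
            rcases hDc with rfl | hDc
            · exact ⟨a, Or.inr a.2, hsub a (hcS a.2).1 Subset.rfl⟩
            · rcases hchain.total hDc a.2 with h | h
              · exact ⟨D, Or.inr hDc, hsub D Subset.rfl h⟩
              · exact ⟨a, Or.inr a.2, hsub a h Subset.rfl⟩
        have hne := reflexive_fip hrefl (fun i : c => (i : Set X))
          (fun i => (hcS i.2).2.closed) (fun i => (hcS i.2).2.convex) C hbd
          (fun i => (hcS i.2).1) (by
            intro t
            obtain ⟨D, hDc, hD⟩ := hfin t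
            have hDS : D ∈ S := by
              rcases hDc with rfl | hDc
              · exact hCS
              · exact hcS hDc
            obtain ⟨x, hx⟩ := hDS.2.nonempty
            exact ⟨x, hDS.1 hx, hD hx⟩)
        obtain ⟨x, _, hx⟩ := hne
        refine ⟨x, ?_⟩
        simp only [mem_iInter, mem_sInter] at hx ⊢
        intro s hs
        exact hx ⟨s, hs⟩
      · intro x hx
        simp only [mem_sInter] at hx ⊢
        intro s hs
        exact (hcS hs).2.mapsTo (hx s hs)) C hCS
  exact ⟨m, hmC, hm.prop.2, fun D hD hDinv =>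
    subset_antisymm hD (hm.le_of_le ⟨hD.trans hm.prop.1, hDinv⟩ hD)⟩


theorem IsMinInv.hull {T : X → X} {K : Set X} (hK : IsMinInv T K) :
    closedConvexHull ℝ (T '' K) = K := by
  have hsub : closedConvexHull ℝ (T '' K) ⊆ K :=
    closedConvexHull_min (image_subset_iff.mpr hK.1.mapsTo) hK.1.convex hK.1.closed
  apply hK.2 _ hsub
  refine ⟨?_, isClosed_closedConvexHull, convex_closedConvexHull, ?_⟩
  · obtain ⟨x, hx⟩ := hK.1.nonempty
    exact ⟨T x, subset_closedConvexHull ⟨x, hx, rfl⟩⟩
  · intro x hx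
    exact subset_closedConvexHull ⟨x, hsub hx, rfl⟩

theorem IsMinInv.diametral {T : X → X} {K : Set X} (hK : IsMinInv T K)
    (hne : ∀ a ∈ K, ∀ b ∈ K, ‖T a - T b‖ ≤ ‖a - b‖) {z : X} (hz : z ∈ K) {r : ℝ}
    (hr : ∀ q ∈ K, ‖z - q‖ ≤ r) : ∀ a ∈ K, ∀ b ∈ K, ‖a - b‖ ≤ r := by
  let D : Set X := {x | x ∈ K ∧ ∀ q ∈ K, ‖x - q‖ ≤ r}
  have hDeq : D = K ∩ ⋂ q ∈ K, Metric.closedBall q r := by
    ext x
    simp only [D, mem_ofPred_eq, mem_inter_iff, mem_iInter, Metric.mem_closedBall, dist_eq_norm]
  have hD : D = K := by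
    apply hK.2 D (fun x hx => hx.1)
    refine ⟨⟨z, hz, hr⟩, ?_, ?_, ?_⟩
    · rw [hDeq]
      exact hK.1.closed.inter (isClosed_biInter fun q _ => Metric.isClosed_closedBall)
    · rw [hDeq]
      exact hK.1.convex.inter (convex_iInter₂ fun q _ => convex_closedBall q r)
    · intro x hx
      refine ⟨hK.1.mapsTo hx.1, ?_⟩
      have hsub : K ⊆ Metric.closedBall (T x) r := by
        rw [← hK.hull]
        apply closedConvexHull_min _ (convex_closedBall _ _) Metric.isClosed_closedBall
        rintro _ ⟨q, hq, rfl⟩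
        rw [Metric.mem_closedBall, dist_eq_norm]
        exact (hne q hq x hx.1).trans (by rw [norm_sub_rev]; exact hx.2 q hq)
      intro q hq
      have := hsub hq
      rwa [Metric.mem_closedBall, dist_eq_norm, norm_sub_rev] at this
  intro a ha b hb
  have : a ∈ D := hD ▸ ha
  exact this.2 b hb

theorem exists_resolvent [CompleteSpace X] {T : X → X} {K : Set X} (hK : Inv T K)
    (hne : ∀ a ∈ K, ∀ b ∈ K, ‖T a - T b‖ ≤ ‖a - b‖) {w : X} (hw : w ∈ K) {t : ℝ}
    (ht0 : 0 ≤ t) (ht1 : t < 1) :
    ∃ z ∈ K, z = (1 - t) • w + t • T z := by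
  let f : X → X := fun z => (1 - t) • w + t • T z
  have hf : MapsTo f K K := fun z hz =>
    hK.convex hw (hK.mapsTo hz) (by linarith) ht0 (by ring)
  have hcontr : ContractingWith ⟨t, ht0⟩ (hf.restrict f K K) := by
    refine ⟨by exact_mod_cast ht1, LipschitzWith.of_dist_le_mul ?_⟩
    rintro ⟨a, ha⟩ ⟨b, hb⟩
    simp only [Subtype.dist_eq, MapsTo.val_restrict_apply, f, dist_eq_norm]
    have : (1 - t) • w + t • T a - ((1 - t) • w + t • T b) = t • (T a - T b) := by
      rw [smul_sub]; abel
    rw [this, norm_smul, Real.norm_of_nonneg ht0]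
    exact mul_le_mul_of_nonneg_left (hne a ha b hb) ht0
  obtain ⟨z, hzK, hz, -⟩ := hcontr.exists_fixedPoint' hK.closed.isComplete hf hw
    (edist_ne_top _ _)
  exact ⟨z, hzK, hz.symm⟩

theorem exists_afps [CompleteSpace X] {T : X → X} {K : Set X} (hK : Inv T K)
    (hne : ∀ a ∈ K, ∀ b ∈ K, ‖T a - T b‖ ≤ ‖a - b‖) {D : ℝ}
    (hD : ∀ a ∈ K, ∀ b ∈ K, ‖a - b‖ ≤ D) :
    ∃ u : ℕ → X, (∀ n, u n ∈ K) ∧ (∀ n : ℕ, ‖u n - T (u n)‖ ≤ D / (n + 1)) ∧
      (∀ n : ℕ, ‖u (n + 1) - u n‖ ≤ D / (n + 1)) := by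
  obtain ⟨w, hw⟩ := hK.nonempty
  have hD0 : 0 ≤ D := (norm_nonneg _).trans (hD w hw w hw)
  have hres : ∀ n : ℕ, ∃ z ∈ K, z = (1 - (n : ℝ) / (n + 1)) • w + ((n : ℝ) / (n + 1)) • T z := by
    intro n
    have h1 : (0 : ℝ) < (n : ℝ) + 1 := by positivity
    exact exists_resolvent hK hne hw (by positivity) (by rw [div_lt_one h1]; linarith)
  choose u huK hu using hres
  refine ⟨u, huK, ?_, ?_⟩
  · intro n
    have h1 : (0 : ℝ) < (n : ℝ) + 1 := by positivity
    have e1 : u n - T (u n) = (1 - (n : ℝ) / (n + 1)) • (w - T (u n)) := by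
      have h := hu n
      generalize T (u n) = y at h ⊢
      rw [h]
      module
    have e2 : (1 - (n : ℝ) / (n + 1)) = 1 / (n + 1) := by field_simp; ring
    rw [e1, norm_smul, e2, Real.norm_of_nonneg (by positivity)]
    have := hD w hw (T (u n)) (hK.mapsTo (huK n))
    calc 1 / ((n : ℝ) + 1) * ‖w - T (u n)‖ ≤ 1 / ((n : ℝ) + 1) * D :=
          mul_le_mul_of_nonneg_left this (by positivity)
      _ = D / (n + 1) := by ring
  · intro n
    have h1 : (0 : ℝ) < (n : ℝ) + 1 := by positivity
    have h2 : (0 : ℝ) < (n : ℝ) + 1 + 1 := by positivity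
    set s : ℝ := (n : ℝ) / (n + 1) with hs
    set t : ℝ := ((n + 1 : ℕ) : ℝ) / (((n + 1 : ℕ) : ℝ) + 1) with ht
    have hs0 : 0 ≤ s := by positivity
    have hst : t - s = 1 / ((n + 1) * (n + 2)) := by
      rw [hs, ht]; push_cast; field_simp; ring
    have hs1 : 1 - s = 1 / (n + 1) := by rw [hs]; field_simp; ring
    have e : u (n + 1) - u n = s • (T (u (n + 1)) - T (u n)) + (t - s) • (T (u (n + 1)) - w) := by
      have ha := hu (n + 1)
      have hb := hu n
      rw [← ht] at ha
      rw [← hs] at hb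
      generalize T (u (n + 1)) = y1 at ha ⊢
      generalize T (u n) = y0 at hb ⊢
      rw [ha, hb]
      module
    have hts : 0 ≤ t - s := by rw [hst]; positivity
    have b1 : ‖u (n + 1) - u n‖ ≤ s * ‖u (n + 1) - u n‖ + (t - s) * D := by
      calc ‖u (n + 1) - u n‖
          = ‖s • (T (u (n + 1)) - T (u n)) + (t - s) • (T (u (n + 1)) - w)‖ := by rw [← e]
        _ ≤ ‖s • (T (u (n + 1)) - T (u n))‖ + ‖(t - s) • (T (u (n + 1)) - w)‖ := norm_add_le _ _
        _ = s * ‖T (u (n + 1)) - T (u n)‖ + (t - s) * ‖T (u (n + 1)) - w‖ := by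
            rw [norm_smul, norm_smul, Real.norm_of_nonneg hs0, Real.norm_of_nonneg hts]
        _ ≤ s * ‖u (n + 1) - u n‖ + (t - s) * D := by
            gcongr
            · exact hne _ (huK _) _ (huK _)
            · exact hD _ (hK.mapsTo (huK _)) _ hw
    have b2 : (1 - s) * ‖u (n + 1) - u n‖ ≤ (t - s) * D := by linarith
    rw [hs1, hst] at b2
    have b3 : ‖u (n + 1) - u n‖ ≤ D / (n + 2) := by
      have h3 : (0 : ℝ) < (n : ℝ) + 2 := by positivity
      rw [le_div_iff₀ h3]
      have : 1 / ((n : ℝ) + 1) * ‖u (n + 1) - u n‖ ≤ 1 / (((n : ℝ) + 1) * (n + 2)) * D := b2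
      have h4 : 1 / (((n : ℝ) + 1) * (n + 2)) * D = 1 / ((n : ℝ) + 1) * (D / (n + 2)) := by
        field_simp
      rw [h4] at this
      have h5 := le_of_mul_le_mul_left this (by positivity)
      rwa [le_div_iff₀ h3] at h5
    refine b3.trans ?_
    apply div_le_div_of_nonneg_left hD0 h1 (by linarith)


/-- Key lemma: in a minimal set (inside a reflexive space), if the asymptotic radius function of
a sequence is `T`-monotone then an asymptotic radius `r` at one point bounds the diameter. -/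
theorem IsMinInv.asymptotic_radius
    (hrefl : Function.Surjective (NormedSpace.inclusionInDoubleDual ℝ X))
    {T : X → X} {K : Set X} (hK : IsMinInv T K) (hbd : Bornology.IsBounded K)
    (hne : ∀ a ∈ K, ∀ b ∈ K, ‖T a - T b‖ ≤ ‖a - b‖) (y : ℕ → X) (hy : ∀ k, y k ∈ K)
    (hinv : ∀ r : ℝ, ∀ q ∈ K, (∀ δ > 0, ∀ᶠ k in atTop, ‖y k - q‖ ≤ r + δ) →
        (∀ δ > 0, ∀ᶠ k in atTop, ‖y k - T q‖ ≤ r + δ))
    {p : X} (hp : p ∈ K) {r : ℝ} (hr : ∀ δ > 0, ∀ᶠ k in atTop, ‖y k - p‖ ≤ r + δ) :
    ∀ a ∈ K, ∀ b ∈ K, ‖a - b‖ ≤ r := by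
  classical
  let L : Set X := {q | q ∈ K ∧ ∀ δ > 0, ∀ᶠ k in atTop, ‖y k - q‖ ≤ r + δ}
  have hL : L = K := by
    apply hK.2 L (fun x hx => hx.1)
    refine ⟨⟨p, hp, hr⟩, ?_, ?_, ?_⟩
    · refine isClosed_of_closure_subset fun q hq => ?_
      have hqK : q ∈ K := by
        have : closure L ⊆ K := closure_minimal (fun x hx => hx.1) hK.1.closed
        exact this hq
      refine ⟨hqK, fun δ hδ => ?_⟩
      obtain ⟨b, hb, hqb⟩ := Metric.mem_closure_iff.1 hq (δ / 2) (by linarith)
      filter_upwards [hb.2 (δ / 2) (by linarith)] with k hk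
      have h1 : ‖y k - q‖ ≤ ‖y k - b‖ + ‖b - q‖ := by
        have : y k - q = (y k - b) + (b - q) := by abel
        rw [this]; exact norm_add_le _ _
      have h2 : ‖b - q‖ < δ / 2 := by rwa [dist_eq_norm, norm_sub_rev] at hqb
      linarith
    · intro q1 hq1 q2 hq2 a b ha hb hab
      refine ⟨hK.1.convex hq1.1 hq2.1 ha hb hab, fun δ hδ => ?_⟩
      filter_upwards [hq1.2 δ hδ, hq2.2 δ hδ] with k hk1 hk2
      have e : y k - (a • q1 + b • q2) = a • (y k - q1) + b • (y k - q2) := by
        have : y k = (a + b) • y k := by rw [hab, one_smul]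
        conv_lhs => rw [this]
        module
      rw [e]
      calc ‖a • (y k - q1) + b • (y k - q2)‖ ≤ ‖a • (y k - q1)‖ + ‖b • (y k - q2)‖ :=
            norm_add_le _ _
        _ = a * ‖y k - q1‖ + b * ‖y k - q2‖ := by
            rw [norm_smul, norm_smul, Real.norm_of_nonneg ha, Real.norm_of_nonneg hb]
        _ ≤ a * (r + δ) + b * (r + δ) := by gcongr
        _ = r + δ := by rw [← add_mul, hab, one_mul]
    · intro q hq
      exact ⟨hK.1.mapsTo hq.1, hinv r q hq.1 hq.2⟩
  intro a ha b hb
  refine le_of_forall_pos_le_add fun δ hδ => ?_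
  have hfip := reflexive_fip hrefl (fun q : K => K ∩ Metric.closedBall (q : X) (r + δ))
    (fun q => hK.1.closed.inter Metric.isClosed_closedBall)
    (fun q => hK.1.convex.inter (convex_closedBall _ _)) K hbd (fun q => inter_subset_left)
    (by
      intro t
      have hev : ∀ᶠ k in atTop, ∀ q ∈ t, ‖y k - (q : X)‖ ≤ r + δ := by
        rw [Filter.eventually_all_finset]
        intro q _
        have hqL : (q : X) ∈ L := by rw [hL]; exact q.2
        exact hqL.2 δ hδ
      obtain ⟨k, hk⟩ := hev.exists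
      refine ⟨y k, hy k, ?_⟩
      simp only [mem_iInter]
      intro q hq
      exact ⟨hy k, by rw [Metric.mem_closedBall, dist_eq_norm]; exact hk q hq⟩)
  obtain ⟨z, hzK, hz⟩ := hfip
  simp only [mem_iInter] at hz
  have hzr : ∀ q ∈ K, ‖z - q‖ ≤ r + δ := by
    intro q hq
    have := (hz ⟨q, hq⟩).2
    rwa [Metric.mem_closedBall, dist_eq_norm] at this
  exact hK.diametral hne hzK hzr a ha b hb

/-- The Goebel-Karlovitz lemma. -/
theorem IsMinInv.goebel_karlovitz
    (hrefl : Function.Surjective (NormedSpace.inclusionInDoubleDual ℝ X))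
    {T : X → X} {K : Set X} (hK : IsMinInv T K) (hbd : Bornology.IsBounded K)
    (hne : ∀ a ∈ K, ∀ b ∈ K, ‖T a - T b‖ ≤ ‖a - b‖) (u : ℕ → X) (hu : ∀ n, u n ∈ K)
    (hafp : Tendsto (fun n => ‖u n - T (u n)‖) atTop (𝓝 0)) {p : X} (hp : p ∈ K) :
    Tendsto (fun n => ‖u n - p‖) atTop (𝓝 (Metric.diam K)) := by
  rw [tendsto_order]
  constructor
  · intro a ha
    by_contra hcon
    rw [Filter.not_eventually] at hcon
    obtain ⟨φ, hφ, hφa⟩ := Filter.extraction_of_frequently_atTop hcon
    have hafp' : Tendsto (fun k => ‖u (φ k) - T (u (φ k))‖) atTop (𝓝 0) :=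
      hafp.comp hφ.tendsto_atTop
    have key := hK.asymptotic_radius hrefl hbd hne (fun k => u (φ k)) (fun k => hu _)
      (by
        intro r q hq h δ hδ
        have h0 : ∀ᶠ k in atTop, ‖u (φ k) - T (u (φ k))‖ < δ / 2 :=
          (tendsto_order.1 hafp').2 _ (by linarith)
        filter_upwards [h (δ / 2) (by linarith), h0] with k hk1 hk2
        have e : u (φ k) - T q = (u (φ k) - T (u (φ k))) + (T (u (φ k)) - T q) := by abel
        have := hne _ (hu (φ k)) _ hq
        calc ‖u (φ k) - T q‖ ≤ ‖u (φ k) - T (u (φ k))‖ + ‖T (u (φ k)) - T q‖ := by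
              rw [e]; exact norm_add_le _ _
          _ ≤ r + δ := by linarith)
      hp (r := a) (by
        intro δ hδ
        refine Filter.Eventually.of_forall fun k => ?_
        have := hφa k
        simp only [not_lt] at this
        linarith)
    have hdiam : Metric.diam K ≤ a := by
      apply Metric.diam_le_of_forall_dist_le
      · have := key p hp p hp
        simpa using this
      · intro x hx y hy
        rw [dist_eq_norm]; exact key x hx y hy
    linarith
  · intro a ha
    refine Filter.Eventually.of_forall fun n => ?_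
    have := Metric.dist_le_diam_of_mem hbd (hu n) hp
    rw [dist_eq_norm] at this
    linarith

/-- Orbits in a minimal set are asymptotically diametral (in the limsup sense). -/
theorem IsMinInv.orbit
    (hrefl : Function.Surjective (NormedSpace.inclusionInDoubleDual ℝ X))
    {T : X → X} {K : Set X} (hK : IsMinInv T K) (hbd : Bornology.IsBounded K)
    (hne : ∀ a ∈ K, ∀ b ∈ K, ‖T a - T b‖ ≤ ‖a - b‖) {x p : X} (hx : x ∈ K) (hp : p ∈ K)
    {r : ℝ} (hr : r < Metric.diam K) : ∃ᶠ n in atTop, r < ‖T^[n] x - p‖ := by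
  by_contra hcon
  rw [Filter.not_frequently] at hcon
  have hyK : ∀ k, T^[k] x ∈ K := by
    intro k
    induction k with
    | zero => simpa using hx
    | succ k ih => rw [Function.iterate_succ_apply']; exact hK.1.mapsTo ih
  have key := hK.asymptotic_radius hrefl hbd hne (fun k => T^[k] x) hyK
    (by
      intro r' q hq h δ hδ
      obtain ⟨N, hN⟩ := eventually_atTop.1 (h δ hδ)
      refine eventually_atTop.2 ⟨N + 1, fun k hk => ?_⟩
      obtain ⟨j, rfl⟩ : ∃ j, k = j + 1 := ⟨k - 1, by omega⟩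
      rw [Function.iterate_succ_apply']
      exact (hne _ (hyK j) _ hq).trans (hN j (by omega)))
    hp (r := r) (by
      intro δ hδ
      filter_upwards [hcon] with k hk
      simp only [not_lt] at hk
      linarith)
  have hdiam : Metric.diam K ≤ r := by
    apply Metric.diam_le_of_forall_dist_le
    · have := key p hp p hp
      simpa using this
    · intro a ha b hb
      rw [dist_eq_norm]; exact key a ha b hb
  linarith

end Vale.Agent.Lib.P079
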