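import Vale.Agent.Lib.P079.Basic

namespace Vale.Agent.Lib.P079

open Set Filter Topology

variable {X : Type*} [NormedAddCommGroup X] [NormedSpace ℝ X]

/-- Resolvent points `z = s • w + (1 - s) • T z` exist for `0 < s ≤ 1`. -/
theorem exists_res [CompleteSpace X] {T : X → X} {K : Set X} (hK : Inv T K)
    (hne : ∀ a ∈ K, ∀ b ∈ K, ‖T a - T b‖ ≤ ‖a - b‖) {w : X} (hw : w ∈ K) {s : ℝ}
    (hs0 : 0 < s) (hs1 : s ≤ 1) :
    ∃ z ∈ K, z = s • w + (1 - s) • T z := by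
  obtain ⟨z, hz, h⟩ := exists_resolvent hK hne hw (t := 1 - s) (by linarith) (by linarith)
  refine ⟨z, hz, ?_⟩
  have : (1 - (1 - s)) = s := by ring
  rw [this] at h
  exact h

theorem res_afp {T : X → X} {K : Set X} (hK : Inv T K) {D : ℝ}
    (hD : ∀ a ∈ K, ∀ b ∈ K, ‖a - b‖ ≤ D) {w z : X} (hw : w ∈ K) (hz : z ∈ K) {s : ℝ}
    (hs0 : 0 < s) (h : z = s • w + (1 - s) • T z) : ‖z - T z‖ ≤ s * D := by
  have e : z - T z = s • (w - T z) := by
    generalize T z = y at h ⊢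
    rw [h]; module
  rw [e, norm_smul, Real.norm_of_nonneg hs0.le]
  exact mul_le_mul_of_nonneg_left (hD w hw _ (hK.mapsTo hz)) hs0.le

theorem res_near {T : X → X} {K : Set X}
    (hne : ∀ a ∈ K, ∀ b ∈ K, ‖T a - T b‖ ≤ ‖a - b‖) {w z a : X} (hz : z ∈ K)
    (ha : a ∈ K) {s : ℝ} (hs0 : 0 < s) (hs1 : s ≤ 1) (h : z = s • w + (1 - s) • T z) :
    ‖z - a‖ ≤ ‖w - a‖ + ‖a - T a‖ / s := by
  have e : z - a = s • (w - a) + (1 - s) • (T z - a) := by
    generalize T z = y at h ⊢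
    rw [h]; module
  have h1s : 0 ≤ 1 - s := by linarith
  have b1 : ‖T z - a‖ ≤ ‖z - a‖ + ‖a - T a‖ := by
    have e2 : T z - a = (T z - T a) + (T a - a) := by abel
    rw [e2]
    refine (norm_add_le _ _).trans ?_
    rw [norm_sub_rev (T a) a]
    linarith [hne z hz a ha]
  have b2 : ‖z - a‖ ≤ s * ‖w - a‖ + (1 - s) * (‖z - a‖ + ‖a - T a‖) := by
    calc ‖z - a‖ = ‖s • (w - a) + (1 - s) • (T z - a)‖ := by rw [← e]
      _ ≤ ‖s • (w - a)‖ + ‖(1 - s) • (T z - a)‖ := norm_add_le _ _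
      _ = s * ‖w - a‖ + (1 - s) * ‖T z - a‖ := by
          rw [norm_smul, norm_smul, Real.norm_of_nonneg hs0.le, Real.norm_of_nonneg h1s]
      _ ≤ s * ‖w - a‖ + (1 - s) * (‖z - a‖ + ‖a - T a‖) := by gcongr
  have b3 : s * ‖z - a‖ ≤ s * ‖w - a‖ + (1 - s) * ‖a - T a‖ := by linarith
  have b4 : s * ‖z - a‖ ≤ s * (‖w - a‖ + ‖a - T a‖ / s) := by
    have : s * (‖w - a‖ + ‖a - T a‖ / s) = s * ‖w - a‖ + ‖a - T a‖ := by
      field_simp
    rw [this]
    have : (1 - s) * ‖a - T a‖ ≤ ‖a - T a‖ := by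
      have := norm_nonneg (a - T a)
      nlinarith
    linarith
  exact le_of_mul_le_mul_left b4 hs0

theorem res_dist {T : X → X} {K : Set X}
    (hne : ∀ a ∈ K, ∀ b ∈ K, ‖T a - T b‖ ≤ ‖a - b‖) {w w' z z' : X} (hz : z ∈ K)
    (hz' : z' ∈ K) {s : ℝ} (hs0 : 0 < s) (hs1 : s ≤ 1) (h : z = s • w + (1 - s) • T z)
    (h' : z' = s • w' + (1 - s) • T z') : ‖z - z'‖ ≤ ‖w - w'‖ := by
  have e : z - z' = s • (w - w') + (1 - s) • (T z - T z') := by
    generalize T z = y at h ⊢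
    generalize T z' = y' at h' ⊢
    rw [h, h']; module
  have h1s : 0 ≤ 1 - s := by linarith
  have b2 : ‖z - z'‖ ≤ s * ‖w - w'‖ + (1 - s) * ‖z - z'‖ := by
    calc ‖z - z'‖ = ‖s • (w - w') + (1 - s) • (T z - T z')‖ := by rw [← e]
      _ ≤ ‖s • (w - w')‖ + ‖(1 - s) • (T z - T z')‖ := norm_add_le _ _
      _ = s * ‖w - w'‖ + (1 - s) * ‖T z - T z'‖ := by
          rw [norm_smul, norm_smul, Real.norm_of_nonneg hs0.le, Real.norm_of_nonneg h1s]
      _ ≤ s * ‖w - w'‖ + (1 - s) * ‖z - z'‖ := by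
          gcongr
          exact hne z hz z' hz'
  have b3 : s * ‖z - z'‖ ≤ s * ‖w - w'‖ := by linarith
  exact le_of_mul_le_mul_left b3 hs0

/-- Distance of resolvent points to a point depending only on `s`, `q`, `η`. -/
theorem res_const {T : X → X} {K : Set X} (hK : Inv T K)
    (hne : ∀ a ∈ K, ∀ b ∈ K, ‖T a - T b‖ ≤ ‖a - b‖) {D : ℝ}
    (hD : ∀ a ∈ K, ∀ b ∈ K, ‖a - b‖ ≤ D) {q : X} (hq : q ∈ K) {s : ℝ}
    (hs0 : 0 < s) (hs1 : s ≤ 1) {η : ℝ} (hη : 0 < η) :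
    ∃ q' ∈ K, ∀ w ∈ K, ∀ z ∈ K, z = s • w + (1 - s) • T z → ‖z - q'‖ ≤ ‖w - q‖ + η := by
  have h1s : 0 ≤ 1 - s := by linarith
  have h1s' : 1 - s < 1 := by linarith
  have hD0 : 0 ≤ D := (norm_nonneg _).trans (hD q hq q hq)
  let Q : ℕ → X := fun k => Nat.rec q (fun _ y => s • q + (1 - s) • T y) k
  have hQ0 : Q 0 = q := rfl
  have hQs : ∀ k, Q (k + 1) = s • q + (1 - s) • T (Q k) := fun k => rfl
  have hQK : ∀ k, Q k ∈ K := by
    intro k
    induction k with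
    | zero => exact hq
    | succ k ih =>
      rw [hQs]
      exact hK.convex hq (hK.mapsTo ih) hs0.le h1s (by ring)
  have key : ∀ k, ∀ w ∈ K, ∀ z ∈ K, z = s • w + (1 - s) • T z →
      ‖z - Q k‖ ≤ ‖w - q‖ + (1 - s) ^ k * D := by
    intro k
    induction k with
    | zero =>
      intro w hw z hz _
      rw [hQ0, pow_zero, one_mul]
      have := hD z hz q hq
      have := norm_nonneg (w - q)
      linarith
    | succ k ih =>
      intro w hw z hz h
      have e : z - Q (k + 1) = s • (w - q) + (1 - s) • (T z - T (Q k)) := by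
        rw [hQs]
        generalize T z = y at h ⊢
        rw [h]; module
      calc ‖z - Q (k + 1)‖ = ‖s • (w - q) + (1 - s) • (T z - T (Q k))‖ := by rw [← e]
        _ ≤ ‖s • (w - q)‖ + ‖(1 - s) • (T z - T (Q k))‖ := norm_add_le _ _
        _ = s * ‖w - q‖ + (1 - s) * ‖T z - T (Q k)‖ := by
            rw [norm_smul, norm_smul, Real.norm_of_nonneg hs0.le, Real.norm_of_nonneg h1s]
        _ ≤ s * ‖w - q‖ + (1 - s) * (‖w - q‖ + (1 - s) ^ k * D) := by
            gcongr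
            exact (hne z hz _ (hQK k)).trans (ih w hw z hz h)
        _ = ‖w - q‖ + (1 - s) ^ (k + 1) * D := by ring
  have hpow : Tendsto (fun k : ℕ => (1 - s) ^ k * D) atTop (𝓝 0) := by
    have := (tendsto_pow_atTop_nhds_zero_of_lt_one h1s h1s').mul_const D
    simpa using this
  obtain ⟨k, hk⟩ := ((tendsto_order.1 hpow).2 η hη).exists
  exact ⟨Q k, hQK k, fun w hw z hz h => (key k w hw z hz h).trans (by linarith)⟩


theorem tendsto_one_div_add_two :
    Tendsto (fun n : ℕ => 1 / ((n : ℝ) + 2)) atTop (𝓝 0) := by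
  have h := (tendsto_const_div_atTop_nhds_zero_nat (1 : ℝ)).comp (tendsto_add_atTop_nat 2)
  refine h.congr (fun n => ?_)
  simp only [Function.comp_apply]
  push_cast
  rfl

/-- Maurey-type convexity of approximate fixed point sequences: for approximate fixed point
sequences `u`, `v` and any sequence `w` in `K`, there is an approximate fixed point sequence `z`
which is asymptotically at least as close to `u` and `v` as `w` is. -/
theorem maurey [CompleteSpace X] {T : X → X} {K : Set X} (hK : Inv T K)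
    (hbd : Bornology.IsBounded K)
    (hne : ∀ a ∈ K, ∀ b ∈ K, ‖T a - T b‖ ≤ ‖a - b‖)
    (u v : ℕ → X) (hu : ∀ n, u n ∈ K) (hv : ∀ n, v n ∈ K)
    (hu' : Tendsto (fun n => ‖u n - T (u n)‖) atTop (𝓝 0))
    (hv' : Tendsto (fun n => ‖v n - T (v n)‖) atTop (𝓝 0))
    (w : ℕ → X) (hw : ∀ n, w n ∈ K) :
    ∃ z : ℕ → X, (∀ n, z n ∈ K) ∧ Tendsto (fun n => ‖z n - T (z n)‖) atTop (𝓝 0) ∧
      ∀ δ > 0, ∀ᶠ n in atTop, ‖z n - u n‖ ≤ ‖w n - u n‖ + δ ∧ ‖z n - v n‖ ≤ ‖w n - v n‖ + δ := by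
  have hD : ∀ a ∈ K, ∀ b ∈ K, ‖a - b‖ ≤ Metric.diam K := fun a ha b hb => by
    have := Metric.dist_le_diam_of_mem hbd ha hb
    rwa [dist_eq_norm] at this
  set ε : ℕ → ℝ := fun n => ‖u n - T (u n)‖ + ‖v n - T (v n)‖ with hε
  have hε0 : ∀ n, 0 ≤ ε n := fun n => add_nonneg (norm_nonneg _) (norm_nonneg _)
  have hεlim : Tendsto ε atTop (𝓝 0) := by
    have := hu'.add hv'
    simpa using this
  set r : ℕ → ℝ := fun n => max (Real.sqrt (ε n)) (1 / ((n : ℝ) + 2)) with hr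
  have hrpos : ∀ n, 0 < r n := fun n =>
    lt_of_lt_of_le (by positivity) (le_max_right _ _)
  have hrlim : Tendsto r atTop (𝓝 0) := by
    have h1 : Tendsto (fun n => Real.sqrt (ε n)) atTop (𝓝 0) := by
      have := (Real.continuous_sqrt.tendsto 0).comp hεlim
      rw [Real.sqrt_zero] at this
      exact this
    have h2 : Tendsto (fun n : ℕ => 1 / ((n : ℝ) + 2)) atTop (𝓝 0) := tendsto_one_div_add_two
    have := h1.max h2
    rw [max_self] at this
    exact this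
  set s : ℕ → ℝ := fun n => min 1 (r n) with hs
  have hspos : ∀ n, 0 < s n := fun n => lt_min one_pos (hrpos n)
  have hs1 : ∀ n, s n ≤ 1 := fun n => min_le_left _ _
  have hslim : Tendsto s atTop (𝓝 0) := by
    have : Tendsto (fun n => min (1 : ℝ) (r n)) atTop (𝓝 (min 1 0)) :=
      tendsto_const_nhds.min hrlim
    simpa using this
  have hres : ∀ n, ∃ z ∈ K, z = s n • w n + (1 - s n) • T z := fun n =>
    exists_res hK hne (hw n) (hspos n) (hs1 n)
  choose z hzK hz using hres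
  refine ⟨z, hzK, ?_, ?_⟩
  · have hb : ∀ n, ‖z n - T (z n)‖ ≤ s n * Metric.diam K := fun n =>
      res_afp hK hD (hw n) (hzK n) (hspos n) (hz n)
    have hl : Tendsto (fun n => s n * Metric.diam K) atTop (𝓝 0) := by
      have := hslim.mul_const (Metric.diam K)
      simpa using this
    exact squeeze_zero (fun n => norm_nonneg _) hb hl
  · intro δ hδ
    have hsq : Tendsto (fun n => Real.sqrt (ε n)) atTop (𝓝 0) := by
      have := (Real.continuous_sqrt.tendsto 0).comp hεlim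
      rw [Real.sqrt_zero] at this
      exact this
    have e1 : ∀ᶠ n in atTop, Real.sqrt (ε n) < δ := (tendsto_order.1 hsq).2 δ hδ
    have e2 : ∀ᶠ n in atTop, ε n < 1 := (tendsto_order.1 hεlim).2 1 one_pos
    filter_upwards [e1, e2] with n h1 h2
    have hsq1 : Real.sqrt (ε n) ≤ 1 := by
      have := Real.sqrt_le_sqrt h2.le
      rwa [Real.sqrt_one] at this
    have hsge : Real.sqrt (ε n) ≤ s n := le_min hsq1 (le_max_left _ _)
    have hbound : ∀ a : X, ‖a - T a‖ ≤ ε n → ‖a - T a‖ / s n ≤ Real.sqrt (ε n) := by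
      intro a ha
      rw [div_le_iff₀ (hspos n)]
      calc ‖a - T a‖ ≤ ε n := ha
        _ = Real.sqrt (ε n) * Real.sqrt (ε n) := (Real.mul_self_sqrt (hε0 n)).symm
        _ ≤ Real.sqrt (ε n) * s n := by
            exact mul_le_mul_of_nonneg_left hsge (Real.sqrt_nonneg _)
    constructor
    · have := res_near hne (hzK n) (hu n) (hspos n) (hs1 n) (hz n)
      have hb := hbound (u n) (by simp only [hε]; linarith [norm_nonneg (v n - T (v n))])
      linarith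
    · have := res_near hne (hzK n) (hv n) (hspos n) (hs1 n) (hz n)
      have hb := hbound (v n) (by simp only [hε]; linarith [norm_nonneg (u n - T (u n))])
      linarith

/-- Lin-type lemma in sequence form. -/
theorem IsMinInv.lin [CompleteSpace X]
    (hrefl : Function.Surjective (NormedSpace.inclusionInDoubleDual ℝ X))
    {T : X → X} {K : Set X} (hK : IsMinInv T K) (hbd : Bornology.IsBounded K)
    (hne : ∀ a ∈ K, ∀ b ∈ K, ‖T a - T b‖ ≤ ‖a - b‖)
    (u v : ℕ → X) (hu : ∀ n, u n ∈ K) (hv : ∀ n, v n ∈ K)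
    (hu' : Tendsto (fun n => ‖u n - T (u n)‖) atTop (𝓝 0))
    (hv' : Tendsto (fun n => ‖v n - T (v n)‖) atTop (𝓝 0))
    (w : ℕ → X) (hw : ∀ n, w n ∈ K) {q p : X} (hq : q ∈ K) (hp : p ∈ K) {ε : ℝ} (hε : 0 < ε) :
    ∃ z : ℕ → X, (∀ n, z n ∈ K) ∧ (∀ n, ‖z n - T (z n)‖ ≤ ε) ∧
      (∀ δ > 0, ∀ᶠ n in atTop, ‖z n - u n‖ ≤ ‖w n - u n‖ + δ ∧ ‖z n - v n‖ ≤ ‖w n - v n‖ + δ) ∧
      (∀ n m, ‖z n - z m‖ ≤ ‖w n - w m‖) ∧
      (∃ q' ∈ K, ∀ n, ‖z n - q'‖ ≤ ‖w n - q‖ + ε) ∧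
      (∃ᶠ n in atTop, Metric.diam K - ε < ‖z n - p‖) := by
  have hD : ∀ a ∈ K, ∀ b ∈ K, ‖a - b‖ ≤ Metric.diam K := fun a ha b hb => by
    have := Metric.dist_le_diam_of_mem hbd ha hb
    rwa [dist_eq_norm] at this
  have hspos : ∀ j : ℕ, (0 : ℝ) < 1 / ((j : ℝ) + 2) := fun j => by positivity
  have hs1 : ∀ j : ℕ, 1 / ((j : ℝ) + 2) ≤ 1 := fun j => by
    rw [div_le_one (by positivity)]; linarith [Nat.cast_nonneg (α := ℝ) j]
  have hres : ∀ j n : ℕ, ∃ z ∈ K, z = (1 / ((j : ℝ) + 2)) • w n + (1 - 1 / ((j : ℝ) + 2)) • T z :=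
    fun j n => exists_res hK.1 hne (hw n) (hspos j) (hs1 j)
  choose Z hZK hZ using hres
  have hafp : ∀ j n, ‖Z j n - T (Z j n)‖ ≤ 1 / ((j : ℝ) + 2) * Metric.diam K := fun j n =>
    res_afp hK.1 hD (hw n) (hZK j n) (hspos j) (hZ j n)
  have hl : Tendsto (fun j : ℕ => 1 / ((j : ℝ) + 2) * Metric.diam K) atTop (𝓝 0) := by
    have h2 : Tendsto (fun n : ℕ => 1 / ((n : ℝ) + 2)) atTop (𝓝 0) := tendsto_one_div_add_two
    have := h2.mul_const (Metric.diam K)
    rw [zero_mul] at this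
    exact this
  obtain ⟨J, hJ⟩ := eventually_atTop.1 ((tendsto_order.1 hl).2 ε hε)
  -- some `j ≥ J` has the frequently-far property
  have hex : ∃ j ≥ J, ∃ᶠ n in atTop, Metric.diam K - ε < ‖Z j n - p‖ := by
    by_contra hcon
    push Not at hcon
    have hch : ∀ j : ℕ, ∃ n, ‖Z (j + J) n - p‖ ≤ Metric.diam K - ε := by
      intro j
      have := hcon (j + J) (by omega)
      obtain ⟨n, hn⟩ := this.exists
      exact ⟨n, hn⟩
    choose N hN using hch
    have hy : Tendsto (fun j => ‖Z (j + J) (N j) - T (Z (j + J) (N j))‖) atTop (𝓝 0) := by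
      refine squeeze_zero (fun j => norm_nonneg _) (fun j => hafp (j + J) (N j)) ?_
      exact hl.comp (tendsto_add_atTop_nat J)
    have hgk := hK.goebel_karlovitz hrefl hbd hne (fun j => Z (j + J) (N j))
      (fun j => hZK _ _) hy hp
    have : ∀ᶠ j in atTop, Metric.diam K - ε < ‖Z (j + J) (N j) - p‖ :=
      (tendsto_order.1 hgk).1 _ (by linarith)
    obtain ⟨j, hj⟩ := this.exists
    linarith [hN j]
  obtain ⟨j, hjJ, hfreq⟩ := hex
  obtain ⟨q', hq'K, hq'⟩ := res_const hK.1 hne hD hq (hspos j) (hs1 j) hε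
  refine ⟨Z j, hZK j, fun n => (hafp j n).trans (hJ j hjJ).le, ?_, ?_, ?_, hfreq⟩
  · intro δ hδ
    have hsj := hspos j
    have e1 : ∀ᶠ n in atTop, ‖u n - T (u n)‖ < δ * (1 / ((j : ℝ) + 2)) :=
      (tendsto_order.1 hu').2 _ (by positivity)
    have e2 : ∀ᶠ n in atTop, ‖v n - T (v n)‖ < δ * (1 / ((j : ℝ) + 2)) :=
      (tendsto_order.1 hv').2 _ (by positivity)
    filter_upwards [e1, e2] with n h1 h2
    constructor
    · have := res_near hne (hZK j n) (hu n) (hspos j) (hs1 j) (hZ j n)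
      have hb : ‖u n - T (u n)‖ / (1 / ((j : ℝ) + 2)) ≤ δ := by
        rw [div_le_iff₀ hsj]; exact h1.le
      linarith
    · have := res_near hne (hZK j n) (hv n) (hspos j) (hs1 j) (hZ j n)
      have hb : ‖v n - T (v n)‖ / (1 / ((j : ℝ) + 2)) ≤ δ := by
        rw [div_le_iff₀ hsj]; exact h2.le
      linarith
  · intro n m
    exact res_dist hne (hZK j n) (hZK j m) (hspos j) (hs1 j) (hZ j n) (hZ j m)
  · exact ⟨q', hq'K, fun n => hq' (w n) (hw n) (Z j n) (hZK j n) (hZ j n)⟩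

end Vale.Agent.Lib.P079
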